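import Vale.Agent.P080.Defs

/-!
# P080 : the infinity Laplacian in coordinates
`Δ_∞ φ = ∑_{i,j} φ_i φ_j φ_{ij}` on `ℝ^d`.
-/

namespace Vale.Agent.P080.Variant

open Vale.Agent.P080

lemma gradient_coord (d : ℕ) (φ : EuclideanSpace ℝ (Fin d) → ℝ) (z : EuclideanSpace ℝ (Fin d)) :
    gradient φ z = ∑ i, (fderiv ℝ φ z (EuclideanSpace.single i (1:ℝ))) •
      (EuclideanSpace.single i (1:ℝ) : EuclideanSpace ℝ (Fin d)) := by
  have h := (EuclideanSpace.basisFun (Fin d) ℝ).sum_repr' (gradient φ z)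
  rw [← h]
  refine Finset.sum_congr rfl fun i _ => ?_
  rw [EuclideanSpace.basisFun_apply, real_inner_comm, inner_gradient_left]

lemma infLaplacian_coord (d : ℕ) (φ : EuclideanSpace ℝ (Fin d) → ℝ)
    (z : EuclideanSpace ℝ (Fin d)) :
    infLaplacian φ z = ∑ i, ∑ j, fderiv ℝ φ z (EuclideanSpace.single i (1:ℝ)) *
      fderiv ℝ φ z (EuclideanSpace.single j (1:ℝ)) *
      fderiv ℝ (fderiv ℝ φ) z (EuclideanSpace.single i (1:ℝ)) (EuclideanSpace.single j (1:ℝ)) := by
  unfold infLaplacian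
  rw [gradient_coord]
  simp only [map_sum, map_smul, sum_apply, smul_apply,
    smul_eq_mul, Finset.mul_sum]
  rw [Finset.sum_comm]
  refine Finset.sum_congr rfl fun i _ => Finset.sum_congr rfl fun j _ => ?_
  ring

end Vale.Agent.P080.Variant
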